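import Vale.Agent.Lib.P170.Subadd2

/-!
P170: for every sharp-threshold sequence `r` of random k-SAT (in the sense of Friedgut's theorem),
`n * r(n)^(-1/(k-1))` is subadditive up to `o(n)`.
-/

namespace Vale.Agent.Results.P170.ThresholdSubadd

open Vale.Agent.Lib.P170 Filter Topology

/-- Let `k ≥ 2` and let `r` be a sequence, eventually bounded below by some `ρ > 0`, with
`P_{k,n}(⌊(r n - ε) n⌋) → 1` and `P_{k,n}(⌊(r n + ε) n⌋) → 0` for every `ε > 0`.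
Then `a n = n * (r n)^(-1/(k-1))` satisfies `a (n₁ + n₂) ≤ a n₁ + a n₂ + ε (n₁ + n₂)` for all
`n₁, n₂ ≥ N(ε)`. -/
theorem result (k : ℕ) (hk : 2 ≤ k) (r : ℕ → ℝ) (ρ : ℝ) (hρ : 0 < ρ)
    (hr : ∀ᶠ n in atTop, ρ ≤ r n)
    (h1 : ∀ ε > 0, Tendsto (fun n : ℕ => satProb k n ⌊(r n - ε) * n⌋₊) atTop (𝓝 1))
    (h0 : ∀ ε > 0, Tendsto (fun n : ℕ => satProb k n ⌊(r n + ε) * n⌋₊) atTop (𝓝 0)) :
    ∀ ε > 0, ∃ N : ℕ, ∀ n₁ n₂ : ℕ, N ≤ n₁ → N ≤ n₂ →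
      ((n₁ + n₂ : ℕ) : ℝ) * (r (n₁ + n₂)) ^ (-(1 / ((k : ℝ) - 1))) ≤
        n₁ * (r n₁) ^ (-(1 / ((k : ℝ) - 1))) + n₂ * (r n₂) ^ (-(1 / ((k : ℝ) - 1))) +
          ε * ((n₁ + n₂ : ℕ) : ℝ) :=
  subadd_rpow k hk r ρ hρ hr h1 h0

end Vale.Agent.Results.P170.ThresholdSubadd
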