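import Vale.Agent.Results.P170.BlockSupermult
import Vale.Agent.Results.P170.ThresholdSubadd

/-!
P170: the two results on random k-SAT in one statement: (1) approximate supermultiplicativity of the
satisfiability probability under disjoint union of variable blocks, with power-mean densities;
(2) for every sharp-threshold sequence `r`, `n * r(n)^(-1/(k-1))` is subadditive up to `o(n)`.
-/

namespace Vale.Agent.Results.P170.A_Combined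

open Vale.Agent.Lib.P170 Filter Topology

theorem result :
    (∀ (k : ℕ), 2 ≤ k → ∀ (C ε : ℝ), 0 < C → 0 < ε →
      ∃ N : ℕ, ∀ n₁ n₂ : ℕ, N ≤ n₁ → N ≤ n₂ → ∀ t₁ t₂ : ℝ, 0 < t₁ → 0 < t₂ →
        t₁ + t₂ = (n₁ : ℝ) + n₂ → ∀ c c₁ c₂ : ℝ, 0 ≤ c → c₁ ≤ C → c₂ ≤ C →
        (c + ε) * ((n₁ : ℝ) / t₁) ^ (k - 1) + ε ≤ c₁ →
        (c + ε) * ((n₂ : ℝ) / t₂) ^ (k - 1) + ε ≤ c₂ →
        satProb k n₁ ⌊c₁ * n₁⌋₊ * satProb k n₂ ⌊c₂ * n₂⌋₊ - ε ≤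
          satProb k (n₁ + n₂) ⌊c * ((n₁ + n₂ : ℕ) : ℝ)⌋₊) ∧
    (∀ (k : ℕ), 2 ≤ k → ∀ (r : ℕ → ℝ) (ρ : ℝ), 0 < ρ →
      (∀ᶠ n in atTop, ρ ≤ r n) →
      (∀ ε > 0, Tendsto (fun n : ℕ => satProb k n ⌊(r n - ε) * n⌋₊) atTop (𝓝 1)) →
      (∀ ε > 0, Tendsto (fun n : ℕ => satProb k n ⌊(r n + ε) * n⌋₊) atTop (𝓝 0)) →
      ∀ ε > 0, ∃ N : ℕ, ∀ n₁ n₂ : ℕ, N ≤ n₁ → N ≤ n₂ →
        ((n₁ + n₂ : ℕ) : ℝ) * (r (n₁ + n₂)) ^ (-(1 / ((k : ℝ) - 1))) ≤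
          n₁ * (r n₁) ^ (-(1 / ((k : ℝ) - 1))) + n₂ * (r n₂) ^ (-(1 / ((k : ℝ) - 1))) +
            ε * ((n₁ + n₂ : ℕ) : ℝ)) :=
  ⟨fun k hk C ε hC hε => Vale.Agent.Results.P170.BlockSupermult.result k hk C ε hC hε,
   fun k hk r ρ hρ hr h1 h0 => Vale.Agent.Results.P170.ThresholdSubadd.result k hk r ρ hρ hr h1 h0⟩

end Vale.Agent.Results.P170.A_Combined
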