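import Vale.Agent.Lib.P170.Density

/-!
P170: approximate supermultiplicativity of the satisfiability probability of random k-SAT
under disjoint union of variable blocks, with power-mean densities.
-/

namespace Vale.Agent.Results.P170.BlockSupermult

open Vale.Agent.Lib.P170

/-- For `k ≥ 2`, `C, ε > 0` there is `N` such that for all block sizes `n₁, n₂ ≥ N`, all
positive reals `t₁ + t₂ = n₁ + n₂` (virtual sizes) and all densities `c ≥ 0`, `c₁, c₂ ≤ C` with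
`(c + ε) (n_j / t_j)^(k-1) + ε ≤ c_j`:
`P_{k,n₁}(⌊c₁ n₁⌋) * P_{k,n₂}(⌊c₂ n₂⌋) - ε ≤ P_{k,n₁+n₂}(⌊c (n₁+n₂)⌋)`. -/
theorem result (k : ℕ) (hk : 2 ≤ k) (C ε : ℝ) (hC : 0 < C) (hε : 0 < ε) :
    ∃ N : ℕ, ∀ n₁ n₂ : ℕ, N ≤ n₁ → N ≤ n₂ → ∀ t₁ t₂ : ℝ, 0 < t₁ → 0 < t₂ →
      t₁ + t₂ = (n₁ : ℝ) + n₂ → ∀ c c₁ c₂ : ℝ, 0 ≤ c → c₁ ≤ C → c₂ ≤ C →
      (c + ε) * ((n₁ : ℝ) / t₁) ^ (k - 1) + ε ≤ c₁ →
      (c + ε) * ((n₂ : ℝ) / t₂) ^ (k - 1) + ε ≤ c₂ →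
      satProb k n₁ ⌊c₁ * n₁⌋₊ * satProb k n₂ ⌊c₂ * n₂⌋₊ - ε ≤
        satProb k (n₁ + n₂) ⌊c * ((n₁ + n₂ : ℕ) : ℝ)⌋₊ :=
  main_density k hk C ε hC hε

end Vale.Agent.Results.P170.BlockSupermult
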